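import Vale.Agent.P331.Final

/-!
# P331: a one-sample guarantee for every matroid against the almighty adversary

Every finite matroid of rank at most `r` admits an online rule that sees one sample per element and
is `1 / (12 (⌈log₂ r⌉ + 2))`-competitive against the almighty adversary.  The model (rules, arrival
orders, joint law of samples and values, competitiveness) is defined in `Vale.Agent.P331.Model`.
-/

open MeasureTheory in
open scoped ENNReal in
theorem Vale.Agent.Results.P331.LogRankAlmighty.result
    {E : Type} [Fintype E] [DecidableEq E] (M : Matroid E) (r : ℕ) (hr : M.eRank ≤ r) :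
    ∃ (Ω : Type) (_ : MeasurableSpace Ω) (ν : Measure Ω) (ρ : Vale.Agent.P331.Rule E Ω),
      IsProbabilityMeasure ν ∧ ρ.IsMeasurable ∧ ρ.Feasible M ∧
        ρ.Competitive ν M (1 / (12 * ((Nat.clog 2 r : ℝ≥0∞) + 2))) :=
  Vale.Agent.P331.main M r hr
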